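import Vale.Agent.P032.Words.H151.Beta

/-!
# Counted paths on the two circles of a BETA pair

`PathM F h n g`: a path of `StepB` from `h` to `g`; `n t` is the number of the changes of the type
`t`, `0 = A|e, 1 = C|f, 2 = A|f, 3 = C|e` on the first circle, `4 = P|d, 5 = Q|f, 6 = P|f, 7 = Q|d` on
the second one, for the types with `F t = true` (`n t = 0` for the others).
Weights, parity, mirror image, exchange of the circles.
-/

namespace Vale.Agent.P032.Words.Trie

/-- one change of the type `t` -/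
def ind (F : Fin 8 → Bool) (t : Fin 8) : Fin 8 → ℕ := fun s => bif F t then (if s = t then 1 else 0) else 0

/-- change on the first circle -/
def cz (F : Fin 8 → Bool) (a b : ℕ) : Fin 8 → ℕ :=
  bif (Nat.beq a 2 && Nat.beq b 0) || (Nat.beq a 0 && Nat.beq b 2) then ind F 0 else
  bif (Nat.beq a 3 && Nat.beq b 1) || (Nat.beq a 1 && Nat.beq b 3) then ind F 1 else
  bif (Nat.beq a 2 && Nat.beq b 1) || (Nat.beq a 1 && Nat.beq b 2) then ind F 2 else
  bif (Nat.beq a 3 && Nat.beq b 0) || (Nat.beq a 0 && Nat.beq b 3) then ind F 3 else 0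

/-- change on the second circle -/
def cv (F : Fin 8 → Bool) (a b : ℕ) : Fin 8 → ℕ :=
  bif (Nat.beq a 2 && Nat.beq b 0) || (Nat.beq a 0 && Nat.beq b 2) then ind F 4 else
  bif (Nat.beq a 3 && Nat.beq b 1) || (Nat.beq a 1 && Nat.beq b 3) then ind F 5 else
  bif (Nat.beq a 2 && Nat.beq b 1) || (Nat.beq a 1 && Nat.beq b 2) then ind F 6 else
  bif (Nat.beq a 3 && Nat.beq b 0) || (Nat.beq a 0 && Nat.beq b 3) then ind F 7 else 0

/-- change of a joint letter -/
def cJ (F : Fin 8 → Bool) (a b : ℕ) : Fin 8 → ℕ := cz F (zl a) (zl b) + cv F (vl a) (vl b)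

/-- change of a word -/
def cW (F : Fin 8 → Bool) (h g : ℕ → ℕ) : Fin 8 → ℕ :=
  cJ F (h 0) (g 0) + (cJ F (h 1) (g 1) + (cJ F (h 2) (g 2) + (cJ F (h 3) (g 3) +
    (cJ F (h 4) (g 4) + cJ F (h 5) (g 5)))))

/-- paths with counters -/
inductive PathM (F : Fin 8 → Bool) : (ℕ → ℕ) → (Fin 8 → ℕ) → (ℕ → ℕ) → Prop
  | refl (h : ℕ → ℕ) : PathM F h 0 h
  | tail {h g g' : ℕ → ℕ} {n : Fin 8 → ℕ} : PathM F h n g → StepB g g' → PathM F h (n + cW F g g') g'

/-- total weight -/
def dotM (w : List ℕ) (n : Fin 8 → ℕ) : ℕ := ∑ t : Fin 8, w.getD t.val 0 * n t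

/-- the weights are `0` at the types which are not counted -/
def SupM (w : List ℕ) (F : Fin 8 → Bool) : Prop := ∀ t : Fin 8, F t = false → w.getD t.val 0 = 0

theorem dotM_add (w : List ℕ) (n m : Fin 8 → ℕ) : dotM w (n + m) = dotM w n + dotM w m := by
  unfold dotM
  rw [← Finset.sum_add_distrib]
  exact Finset.sum_congr rfl fun t _ => by rw [Pi.add_apply, Nat.mul_add]

theorem dotM_zero (w : List ℕ) : dotM w 0 = 0 := by unfold dotM; simp

theorem dotM_ind {w : List ℕ} {F : Fin 8 → Bool} (hs : SupM w F) (t : Fin 8) :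
    dotM w (ind F t) = w.getD t.val 0 := by
  unfold dotM ind
  rw [Finset.sum_eq_single t]
  · cases h : F t
    · rw [hs t h, Nat.zero_mul]
    · simp
  · intro b _ hb
    cases h : F t <;> simp [hb]
  · intro h; exact absurd (Finset.mem_univ t) h

theorem dotM_cz {w : List ℕ} {F : Fin 8 → Bool} (hs : SupM w F) (a b : ℕ) :
    dotM w (cz F a b) = zc w a b := by
  unfold cz zc
  cases ((Nat.beq a 2 && Nat.beq b 0) || (Nat.beq a 0 && Nat.beq b 2)) <;>
  cases ((Nat.beq a 3 && Nat.beq b 1) || (Nat.beq a 1 && Nat.beq b 3)) <;>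
  cases ((Nat.beq a 2 && Nat.beq b 1) || (Nat.beq a 1 && Nat.beq b 2)) <;>
  cases ((Nat.beq a 3 && Nat.beq b 0) || (Nat.beq a 0 && Nat.beq b 3)) <;>
  simp only [cond_true, cond_false, dotM_ind hs, dotM_zero] <;> rfl

theorem dotM_cv {w : List ℕ} {F : Fin 8 → Bool} (hs : SupM w F) (a b : ℕ) :
    dotM w (cv F a b) = vc w a b := by
  unfold cv vc
  cases ((Nat.beq a 2 && Nat.beq b 0) || (Nat.beq a 0 && Nat.beq b 2)) <;>
  cases ((Nat.beq a 3 && Nat.beq b 1) || (Nat.beq a 1 && Nat.beq b 3)) <;>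
  cases ((Nat.beq a 2 && Nat.beq b 1) || (Nat.beq a 1 && Nat.beq b 2)) <;>
  cases ((Nat.beq a 3 && Nat.beq b 0) || (Nat.beq a 0 && Nat.beq b 3)) <;>
  simp only [cond_true, cond_false, dotM_ind hs, dotM_zero] <;> rfl

theorem dotM_cW {w : List ℕ} {F : Fin 8 → Bool} (hs : SupM w F) (h g : ℕ → ℕ) :
    dotM w (cW F h g) = costW w h g := by
  have e : ∀ a b, dotM w (cJ F a b) = cost w a b := fun a b => by
    unfold cJ cost; rw [dotM_add, dotM_cz hs, dotM_cv hs]
  unfold cW costW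
  simp only [dotM_add, e]

/-- weights of a counted path -/
theorem PathM.toB {w : List ℕ} {F : Fin 8 → Bool} (hs : SupM w F) {h g : ℕ → ℕ} {n : Fin 8 → ℕ}
    (hp : PathM F h n g) : PathB w h (dotM w n) g := by
  induction hp with
  | refl => rw [dotM_zero]; exact PathB.refl _
  | tail _ hs' ih => rw [dotM_add, dotM_cW hs]; exact PathB.tail ih hs'

theorem PathM.trans {F : Fin 8 → Bool} {h g k : ℕ → ℕ} {n m : Fin 8 → ℕ} (h1 : PathM F h n g)
    (h2 : PathM F g m k) : PathM F h (n + m) k := by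
  induction h2 with
  | refl => rw [add_zero]; exact h1
  | tail _ hs ih => rw [← add_assoc]; exact PathM.tail ih hs

/-! ### no change between the two pair letters -/

/-- neither `A|C` nor `P|Q` -/
def nO (a b : ℕ) : Bool := !(oo (zl a) (zl b)) && !(oo (vl a) (vl b))

/-- the changes of a move -/
def nOm : Lv → Bool
  | .s _ => true
  | .c a b => nO a b

theorem multi_nO : (multi.all fun m => m.all nOm) = true := by decide +kernel

theorem nO_self (a : ℕ) : nO a a = true := by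
  unfold nO oo
  have key : ∀ x : ℕ, ((Nat.beq x 2 && Nat.beq x 3) || (Nat.beq x 3 && Nat.beq x 2)) = false := by
    intro x
    cases h2 : Nat.beq x 2 <;> cases h3 : Nat.beq x 3 <;> try rfl
    have e2 := Nat.eq_of_beq_eq_true h2
    have e3 := Nat.eq_of_beq_eq_true h3
    omega
  rw [key, key]; rfl

theorem al_nO {a b : ℕ} (h : al a b = true) : nO a b = true := by
  unfold al at h
  unfold nO
  cases hz : Nat.beq (zl a) (zl b)
  · rw [hz, cond_false, Bool.and_eq_true] at h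
    have hv := Nat.eq_of_beq_eq_true h.1
    have h1 := nO_self a
    unfold nO at h1
    rw [Bool.and_eq_true] at h1 ⊢
    exact ⟨h.2, by rw [← hv]; exact h1.2⟩
  · rw [hz, cond_true, Bool.and_eq_true] at h
    have hv := Nat.eq_of_beq_eq_true hz
    have h1 := nO_self a
    unfold nO at h1
    rw [Bool.and_eq_true] at h1 ⊢
    exact ⟨by rw [← hv]; exact h1.1, h.2⟩

theorem fit_nO : ∀ {L : List Lv} {l l' : List ℕ}, L.all nOm = true → FitW L l l' →
    ∀ i, nO (l.getD i 0) (l'.getD i 0) = true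
  | [], [], [], _, _, i => by simp [nO_self]
  | v :: L, a :: l, b :: l', h, hf, i => by
    rw [List.all_cons, Bool.and_eq_true] at h
    obtain ⟨h1, h2⟩ := hf
    cases i with
    | zero =>
      cases v with
      | s m => obtain ⟨rfl, _⟩ := h1; simp [nO_self]
      | c p q => obtain ⟨rfl, rfl⟩ := h1; exact h.1
    | succ i => simpa using fit_nO h.2 h2 i
  | [], _ :: _, _, _, hf, _ => absurd hf (by simp [FitW])
  | [], [], _ :: _, _, hf, _ => absurd hf (by simp [FitW])
  | _ :: _, [], _, _, hf, _ => absurd hf (by simp [FitW])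
  | _ :: _, _ :: _, [], _, hf, _ => absurd hf (by simp [FitW])

theorem StepB.nO {h g : ℕ → ℕ} (hs : StepB h g) : ∀ k < 6, Trie.nO (h k) (g k) = true := by
  cases hs with
  | @single k b hk _ _ ha =>
    intro j _
    by_cases hj : j = k
    · subst hj; rw [Function.update_self]; exact al_nO ha
    · rw [Function.update_of_ne hj]; exact nO_self _
  | @multi _ m hm _ _ hf =>
    intro j hj
    have := fit_nO (List.all_eq_true.1 multi_nO m hm) hf j
    obtain rfl | rfl | rfl | rfl | rfl | rfl : j = 0 ∨ j = 1 ∨ j = 2 ∨ j = 3 ∨ j = 4 ∨ j = 5 := by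
      omega
    all_goals simpa [wl] using this

theorem StepB.leg {h g : ℕ → ℕ} (hs : StepB h g) : LegB h ∧ LegB g := by
  cases hs with
  | single _ h1 h2 _ => exact ⟨h1, h2⟩
  | multi _ h1 h2 _ => exact ⟨h1, h2⟩

/-! ### parity -/

/-- number of positions with property `L` -/
def cntL (L : ℕ → ℕ) (h : ℕ → ℕ) : ℕ := L (h 0) + (L (h 1) + (L (h 2) + (L (h 3) + (L (h 4) + L (h 5)))))

theorem PathM.par {F : Fin 8 → Bool} {L : ℕ → ℕ} {s t : Fin 8}
    (H : ∀ a < 10, ∀ b < 10, Trie.nO a b = true → (L a + L b + cJ F a b s + cJ F a b t) % 2 = 0)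
    {h g : ℕ → ℕ} {n : Fin 8 → ℕ} (hp : PathM F h n g) :
    (cntL L h + cntL L g + n s + n t) % 2 = 0 := by
  induction hp with
  | refl => simp only [Pi.zero_apply]; omega
  | @tail g g' n _ hs ih =>
    have hl := hs.leg
    have h0 := H _ (hl.1.lt 0 (by norm_num)) _ (hl.2.lt 0 (by norm_num)) (hs.nO 0 (by norm_num))
    have h1 := H _ (hl.1.lt 1 (by norm_num)) _ (hl.2.lt 1 (by norm_num)) (hs.nO 1 (by norm_num))
    have h2 := H _ (hl.1.lt 2 (by norm_num)) _ (hl.2.lt 2 (by norm_num)) (hs.nO 2 (by norm_num))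
    have h3 := H _ (hl.1.lt 3 (by norm_num)) _ (hl.2.lt 3 (by norm_num)) (hs.nO 3 (by norm_num))
    have h4 := H _ (hl.1.lt 4 (by norm_num)) _ (hl.2.lt 4 (by norm_num)) (hs.nO 4 (by norm_num))
    have h5 := H _ (hl.1.lt 5 (by norm_num)) _ (hl.2.lt 5 (by norm_num)) (hs.nO 5 (by norm_num))
    unfold cW
    simp only [Pi.add_apply]
    unfold cntL at ih ⊢
    omega

/-- indicator of a letter of the first circle -/
def isz (l : ℕ) (a : ℕ) : ℕ := bif Nat.beq (zl a) l then 1 else 0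

/-- indicator of a letter of the second circle -/
def isv (l : ℕ) (a : ℕ) : ℕ := bif Nat.beq (vl a) l then 1 else 0

theorem ind_eq {F : Fin 8 → Bool} {s : Fin 8} (hs : F s = true) (t : Fin 8) :
    ind F t s = ind (fun _ => true) t s := by
  unfold ind
  by_cases h : s = t
  · subst h; rw [hs]
  · cases F t <;> simp [h]

theorem cz_eq {F : Fin 8 → Bool} {s : Fin 8} (hs : F s = true) (a b : ℕ) :
    cz F a b s = cz (fun _ => true) a b s := by
  unfold cz
  cases ((Nat.beq a 2 && Nat.beq b 0) || (Nat.beq a 0 && Nat.beq b 2)) <;>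
  cases ((Nat.beq a 3 && Nat.beq b 1) || (Nat.beq a 1 && Nat.beq b 3)) <;>
  cases ((Nat.beq a 2 && Nat.beq b 1) || (Nat.beq a 1 && Nat.beq b 2)) <;>
  cases ((Nat.beq a 3 && Nat.beq b 0) || (Nat.beq a 0 && Nat.beq b 3)) <;>
  simp only [cond_true, cond_false, ind_eq hs]

theorem cv_eq {F : Fin 8 → Bool} {s : Fin 8} (hs : F s = true) (a b : ℕ) :
    cv F a b s = cv (fun _ => true) a b s := by
  unfold cv
  cases ((Nat.beq a 2 && Nat.beq b 0) || (Nat.beq a 0 && Nat.beq b 2)) <;>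
  cases ((Nat.beq a 3 && Nat.beq b 1) || (Nat.beq a 1 && Nat.beq b 3)) <;>
  cases ((Nat.beq a 2 && Nat.beq b 1) || (Nat.beq a 1 && Nat.beq b 2)) <;>
  cases ((Nat.beq a 3 && Nat.beq b 0) || (Nat.beq a 0 && Nat.beq b 3)) <;>
  simp only [cond_true, cond_false, ind_eq hs]

theorem cJ_eq {F : Fin 8 → Bool} {s : Fin 8} (hs : F s = true) (a b : ℕ) :
    cJ F a b s = cJ (fun _ => true) a b s := by
  unfold cJ
  rw [Pi.add_apply, Pi.add_apply, cz_eq hs, cv_eq hs]

theorem parA0 : ∀ a < 10, ∀ b < 10, nO a b = true →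
    (isz 2 a + isz 2 b + cJ (fun _ => true) a b 0 + cJ (fun _ => true) a b 2) % 2 = 0 := by
  decide +kernel

theorem parC0 : ∀ a < 10, ∀ b < 10, nO a b = true →
    (isz 3 a + isz 3 b + cJ (fun _ => true) a b 1 + cJ (fun _ => true) a b 3) % 2 = 0 := by
  decide +kernel

theorem parP0 : ∀ a < 10, ∀ b < 10, nO a b = true →
    (isv 2 a + isv 2 b + cJ (fun _ => true) a b 4 + cJ (fun _ => true) a b 6) % 2 = 0 := by
  decide +kernel

theorem parQ0 : ∀ a < 10, ∀ b < 10, nO a b = true →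
    (isv 3 a + isv 3 b + cJ (fun _ => true) a b 5 + cJ (fun _ => true) a b 7) % 2 = 0 := by
  decide +kernel

/-- the four parities -/
theorem PathM.parity {F : Fin 8 → Bool} {h g : ℕ → ℕ} {n : Fin 8 → ℕ} (hp : PathM F h n g) :
    (F 0 = true → F 2 = true → (cntL (isz 2) h + cntL (isz 2) g + n 0 + n 2) % 2 = 0) ∧
    (F 1 = true → F 3 = true → (cntL (isz 3) h + cntL (isz 3) g + n 1 + n 3) % 2 = 0) ∧
    (F 4 = true → F 6 = true → (cntL (isv 2) h + cntL (isv 2) g + n 4 + n 6) % 2 = 0) ∧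
    (F 5 = true → F 7 = true → (cntL (isv 3) h + cntL (isv 3) g + n 5 + n 7) % 2 = 0) := by
  refine ⟨fun h1 h2 => hp.par ?_, fun h1 h2 => hp.par ?_, fun h1 h2 => hp.par ?_,
    fun h1 h2 => hp.par ?_⟩ <;> intro a ha b hb hn <;> rw [cJ_eq h1, cJ_eq h2]
  exacts [parA0 a ha b hb hn, parC0 a ha b hb hn, parP0 a ha b hb hn, parQ0 a ha b hb hn]

/-! ### mirror image -/

/-- mirror image of a word -/
def rv (h : ℕ → ℕ) : ℕ → ℕ := fun k => if k < 6 then h (5 - k) else h k

/-- reversed move -/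
def flp : Lv → Lv
  | .s l => .s l
  | .c a b => .c b a

theorem nb_symmM (a b : ℕ) : nb a b = nb b a := by
  unfold nb
  have key : ∀ x y : ℕ, Nat.beq x y = Nat.beq y x := by
    intro x y
    rw [Bool.eq_iff_iff]
    constructor <;> intro h <;> rw [Nat.eq_of_beq_eq_true h] <;> exact Nat.beq_refl _
  rw [key (zl a), key (vl a)]

theorem oo_symm (a b : ℕ) : oo a b = oo b a := by
  unfold oo
  cases Nat.beq a 2 <;> cases Nat.beq b 3 <;> cases Nat.beq a 3 <;> cases Nat.beq b 2 <;> rfl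

theorem op_symm (a b : ℕ) : op a b = op b a := by
  unfold op
  rw [oo_symm (zl a), oo_symm (vl a)]

theorem LegB.rv {h : ℕ → ℕ} (H : LegB h) : LegB (Trie.rv h) := by
  refine ⟨fun k hk => ?_, ?_, ?_, ?_, ?_, ?_, ?_, ?_, ?_, ?_⟩
  · show (if k < 6 then h (5 - k) else h k) < 10
    rw [if_pos hk]; exact H.lt _ (by omega)
  · show nb (h 5) (h 4) = true; rw [nb_symmM]; exact H.n4
  · show nb (h 4) (h 3) = true; rw [nb_symmM]; exact H.n3
  · show nb (h 3) (h 2) = true; rw [nb_symmM]; exact H.n2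
  · show nb (h 2) (h 1) = true; rw [nb_symmM]; exact H.n1
  · show nb (h 1) (h 0) = true; rw [nb_symmM]; exact H.n0
  · show nb (h 0) (h 5) = true; rw [nb_symmM]; exact H.n5
  · show op (h 5) (h 2) = true; rw [op_symm]; exact H.o2
  · show op (h 4) (h 1) = true; rw [op_symm]; exact H.o1
  · show op (h 3) (h 0) = true; rw [op_symm]; exact H.o0

/-- equality of lists of natural numbers -/
def beqL : List ℕ → List ℕ → Bool
  | [], [] => true
  | a :: l, b :: l' => Nat.beq a b && beqL l l'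
  | _, _ => false

/-- `m'` allows everything that `m` allows, with the letters renamed by `f` -/
def subL (f : ℕ → ℕ) : List Lv → List Lv → Bool
  | [], [] => true
  | .s l :: L, .s l' :: L' => (l.all fun a => l'.any fun b => Nat.beq (f a) b) && subL f L L'
  | .c a b :: L, .c a' b' :: L' => Nat.beq (f a) a' && (Nat.beq (f b) b' && subL f L L')
  | _, _ => false

theorem subL_spec {f : ℕ → ℕ} : ∀ {L L' : List Lv} {l l' : List ℕ}, subL f L L' = true →
    FitW L l l' → FitW L' (l.map f) (l'.map f)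
  | [], [], [], [], _, _ => trivial
  | .s m :: L, .s m' :: L', a :: l, b :: l', h, hf => by
    obtain ⟨⟨rfl, h1⟩, h2⟩ := hf
    have h' : ((m.all fun a => m'.any fun b => Nat.beq (f a) b) && subL f L L') = true := h
    rw [Bool.and_eq_true] at h'
    have h3 := List.all_eq_true.1 h'.1 _ (List.contains_iff_mem.1 h1)
    obtain ⟨c, hc, hc'⟩ := List.any_eq_true.1 h3
    refine ⟨⟨rfl, ?_⟩, subL_spec h'.2 h2⟩
    rw [Nat.eq_of_beq_eq_true hc']; exact List.contains_iff_mem.2 hc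
  | .c p q :: L, .c p' q' :: L', a :: l, b :: l', h, hf => by
    obtain ⟨⟨rfl, rfl⟩, h2⟩ := hf
    have h' : (Nat.beq (f a) p' && (Nat.beq (f b) q' && subL f L L')) = true := h
    rw [Bool.and_eq_true, Bool.and_eq_true] at h'
    exact ⟨⟨Nat.eq_of_beq_eq_true h'.1, Nat.eq_of_beq_eq_true h'.2.1⟩, subL_spec h'.2.2 h2⟩
  | [], .s _ :: _, _, _, h, _ => absurd h (by simp [subL])
  | [], .c _ _ :: _, _, _, h, _ => absurd h (by simp [subL])
  | .s _ :: _, [], _, _, h, _ => absurd h (by simp [subL])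
  | .c _ _ :: _, [], _, _, h, _ => absurd h (by simp [subL])
  | .s _ :: _, .c _ _ :: _, _, _, h, _ => absurd h (by simp [subL])
  | .c _ _ :: _, .s _ :: _, _, _, h, _ => absurd h (by simp [subL])
  | [], [], _ :: _, _, _, hf => absurd hf (by simp [FitW])
  | [], [], [], _ :: _, _, hf => absurd hf (by simp [FitW])
  | .s _ :: _, .s _ :: _, [], _, _, hf => absurd hf (by simp [FitW])
  | .s _ :: _, .s _ :: _, _ :: _, [], _, hf => absurd hf (by simp [FitW])
  | .c _ _ :: _, .c _ _ :: _, [], _, _, hf => absurd hf (by simp [FitW])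
  | .c _ _ :: _, .c _ _ :: _, _ :: _, [], _, hf => absurd hf (by simp [FitW])

theorem multi_rv : (multi.all fun m => multi.any fun m' => subL id (m.map flp).reverse m') = true := by
  decide +kernel

/-- exchange of the circles -/
def sg (a : ℕ) : ℕ := ([0, 3, 6, 1, 7, 8, 2, 4, 5, 9] : List ℕ).getD a 0

theorem multi_sw : (multi.all fun m => multi.any fun m' => subL sg (m.rotate 3) m') = true := by
  decide +kernel

theorem fit_six {m : List Lv} {a0 a1 a2 a3 a4 a5 b0 b1 b2 b3 b4 b5 : ℕ}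
    (h : FitW m [a0, a1, a2, a3, a4, a5] [b0, b1, b2, b3, b4, b5]) :
    ∃ v0 v1 v2 v3 v4 v5, m = [v0, v1, v2, v3, v4, v5] ∧ Lv.Fit v0 a0 b0 ∧ Lv.Fit v1 a1 b1 ∧
      Lv.Fit v2 a2 b2 ∧ Lv.Fit v3 a3 b3 ∧ Lv.Fit v4 a4 b4 ∧ Lv.Fit v5 a5 b5 := by
  rcases m with _ | ⟨v0, m⟩
  · exact absurd h (by simp [FitW])
  rcases m with _ | ⟨v1, m⟩
  · exact absurd h (by simp [FitW])
  rcases m with _ | ⟨v2, m⟩
  · exact absurd h (by simp [FitW])
  rcases m with _ | ⟨v3, m⟩
  · exact absurd h (by simp [FitW])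
  rcases m with _ | ⟨v4, m⟩
  · exact absurd h (by simp [FitW])
  rcases m with _ | ⟨v5, m⟩
  · exact absurd h (by simp [FitW])
  rcases m with _ | ⟨v6, m⟩
  · obtain ⟨h0, h1, h2, h3, h4, h5, _⟩ := h
    exact ⟨v0, v1, v2, v3, v4, v5, rfl, h0, h1, h2, h3, h4, h5⟩
  · exact absurd h (by simp [FitW])

theorem Lv.Fit.flp {v : Lv} {a b : ℕ} (h : v.Fit a b) : (Trie.flp v).Fit b a := by
  cases v with
  | s l => obtain ⟨rfl, h⟩ := h; exact ⟨rfl, h⟩
  | c p q => obtain ⟨rfl, rfl⟩ := h; exact ⟨rfl, rfl⟩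

/-- **Mirror image of a move.** -/
theorem StepB.rv {h g : ℕ → ℕ} (hs : StepB h g) : StepB (Trie.rv g) (Trie.rv h) := by
  cases hs with
  | @single k b hk h1 h2 ha =>
    have e : Trie.rv h = Function.update (Trie.rv (Function.update h k b)) (5 - k) (h k) := by
      funext j
      by_cases hj : j < 6
      · by_cases hjk : j = 5 - k
        · subst hjk
          rw [Function.update_self]
          show (if 5 - k < 6 then h (5 - (5 - k)) else h (5 - k)) = h k
          rw [if_pos hj]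
          congr 1; omega
        · rw [Function.update_of_ne hjk]
          show (if j < 6 then h (5 - j) else h j) =
            (if j < 6 then Function.update h k b (5 - j) else Function.update h k b j)
          rw [if_pos hj, if_pos hj, Function.update_of_ne (by omega)]
      · rw [Function.update_of_ne (by omega)]
        show (if j < 6 then h (5 - j) else h j) =
            (if j < 6 then Function.update h k b (5 - j) else Function.update h k b j)
        rw [if_neg hj, if_neg hj, Function.update_of_ne (by omega)]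
    have h3 : LegB (Function.update (Trie.rv (Function.update h k b)) (5 - k) (h k)) := by
      rw [← e]; exact h1.rv
    rw [e]
    refine StepB.single (by omega) h2.rv h3 ?_
    show al (if 5 - k < 6 then Function.update h k b (5 - (5 - k)) else
      Function.update h k b (5 - k)) (h k) = true
    rw [if_pos (by omega), show 5 - (5 - k) = k by omega, Function.update_self, al_symm]
    exact ha
  | @multi _ m hm h1 h2 hf =>
    obtain ⟨v0, v1, v2, v3, v4, v5, rfl, f0, f1, f2, f3, f4, f5⟩ := fit_six hf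
    obtain ⟨m', hm', hsub⟩ := List.any_eq_true.1 (List.all_eq_true.1 multi_rv _ hm)
    have f' : FitW ([v0, v1, v2, v3, v4, v5].map flp).reverse (wl (Trie.rv g)) (wl (Trie.rv h)) :=
      ⟨f5.flp, f4.flp, f3.flp, f2.flp, f1.flp, f0.flp, trivial⟩
    have := subL_spec hsub f'
    rw [List.map_id, List.map_id] at this
    exact StepB.multi hm' h2.rv h1.rv this

theorem cJ_symm (F : Fin 8 → Bool) (a b : ℕ) : cJ F a b = cJ F b a := by
  have e1 : ∀ a b, cz F a b = cz F b a := fun a b => by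
    unfold cz
    rw [symm_aux a b 2 0, symm_aux a b 3 1, symm_aux a b 2 1, symm_aux a b 3 0]
  have e2 : ∀ a b, cv F a b = cv F b a := fun a b => by
    unfold cv
    rw [symm_aux a b 2 0, symm_aux a b 3 1, symm_aux a b 2 1, symm_aux a b 3 0]
  unfold cJ
  rw [e1, e2]

theorem cW_rv (F : Fin 8 → Bool) (h g : ℕ → ℕ) : cW F (rv g) (rv h) = cW F h g := by
  show cJ F (g 5) (h 5) + (cJ F (g 4) (h 4) + (cJ F (g 3) (h 3) + (cJ F (g 2) (h 2) +
    (cJ F (g 1) (h 1) + cJ F (g 0) (h 0))))) = cJ F (h 0) (g 0) + (cJ F (h 1) (g 1) +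
    (cJ F (h 2) (g 2) + (cJ F (h 3) (g 3) + (cJ F (h 4) (g 4) + cJ F (h 5) (g 5)))))
  rw [cJ_symm F (g 0), cJ_symm F (g 1), cJ_symm F (g 2), cJ_symm F (g 3), cJ_symm F (g 4),
    cJ_symm F (g 5)]
  abel

theorem PathM.single {F : Fin 8 → Bool} {h g : ℕ → ℕ} (hs : StepB h g) : PathM F h (cW F h g) g := by
  have := (PathM.refl (F := F) h).tail hs
  rwa [zero_add] at this

/-- **Mirror image of a path.** -/
theorem PathM.rv {F : Fin 8 → Bool} {h g : ℕ → ℕ} {n : Fin 8 → ℕ} (hp : PathM F h n g) :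
    PathM F (Trie.rv g) n (Trie.rv h) := by
  induction hp with
  | refl => exact PathM.refl _
  | @tail g g' n _ hs ih =>
    have h1 : PathM F (Trie.rv g') (cW F g g') (Trie.rv g) := by
      rw [← cW_rv]; exact PathM.single hs.rv
    have := h1.trans ih
    rwa [add_comm] at this

/-- exchange of the two circles -/
def sp (h : ℕ → ℕ) : ℕ → ℕ := fun k => if k < 6 then sg (h ((k + 3) % 6)) else h k

theorem sg_lt : ∀ a < 10, sg a < 10 := by decide
theorem zl_sg : ∀ a < 10, zl (sg a) = vl a := by decide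
theorem vl_sg : ∀ a < 10, vl (sg a) = zl a := by decide
theorem nb_sg : ∀ a < 10, ∀ b < 10, nb (sg a) (sg b) = nb a b := by decide
theorem op_sg : ∀ a < 10, ∀ b < 10, op (sg a) (sg b) = op a b := by decide
theorem al_sg : ∀ a < 10, ∀ b < 10, al (sg a) (sg b) = al a b := by decide +kernel
theorem jn_zv : ∀ a < 10, jn (zl a) (vl a) = a := by decide

theorem LegB.sp {h : ℕ → ℕ} (H : LegB h) : LegB (Trie.sp h) := by
  have l0 := H.lt 0 (by norm_num)
  have l1 := H.lt 1 (by norm_num)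
  have l2 := H.lt 2 (by norm_num)
  have l3 := H.lt 3 (by norm_num)
  have l4 := H.lt 4 (by norm_num)
  have l5 := H.lt 5 (by norm_num)
  refine ⟨fun k hk => ?_, ?_, ?_, ?_, ?_, ?_, ?_, ?_, ?_, ?_⟩
  · show (if k < 6 then sg (h ((k + 3) % 6)) else h k) < 10
    rw [if_pos hk]; exact sg_lt _ (H.lt _ (Nat.mod_lt _ (by norm_num)))
  · show nb (sg (h 3)) (sg (h 4)) = true; rw [nb_sg _ l3 _ l4]; exact H.n3
  · show nb (sg (h 4)) (sg (h 5)) = true; rw [nb_sg _ l4 _ l5]; exact H.n4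
  · show nb (sg (h 5)) (sg (h 0)) = true; rw [nb_sg _ l5 _ l0]; exact H.n5
  · show nb (sg (h 0)) (sg (h 1)) = true; rw [nb_sg _ l0 _ l1]; exact H.n0
  · show nb (sg (h 1)) (sg (h 2)) = true; rw [nb_sg _ l1 _ l2]; exact H.n1
  · show nb (sg (h 2)) (sg (h 3)) = true; rw [nb_sg _ l2 _ l3]; exact H.n2
  · show op (sg (h 3)) (sg (h 0)) = true; rw [op_sg _ l3 _ l0, op_symm]; exact H.o0
  · show op (sg (h 4)) (sg (h 1)) = true; rw [op_sg _ l4 _ l1, op_symm]; exact H.o1
  · show op (sg (h 5)) (sg (h 2)) = true; rw [op_sg _ l5 _ l2, op_symm]; exact H.o2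

/-- **A move with the circles exchanged.** -/
theorem StepB.sp {h g : ℕ → ℕ} (hs : StepB h g) : StepB (Trie.sp h) (Trie.sp g) := by
  cases hs with
  | @single k b hk h1 h2 ha =>
    have hb : b < 10 := by have := h2.lt k hk; rwa [Function.update_self] at this
    have e : Trie.sp (Function.update h k b) = Function.update (Trie.sp h) ((k + 3) % 6) (sg b) := by
      funext j
      by_cases hj : j < 6
      · by_cases hjk : j = (k + 3) % 6
        · subst hjk
          rw [Function.update_self]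
          show (if (k + 3) % 6 < 6 then sg (Function.update h k b (((k + 3) % 6 + 3) % 6)) else
            Function.update h k b ((k + 3) % 6)) = sg b
          rw [if_pos hj, show ((k + 3) % 6 + 3) % 6 = k by omega, Function.update_self]
        · rw [Function.update_of_ne hjk]
          show (if j < 6 then sg (Function.update h k b ((j + 3) % 6)) else
            Function.update h k b j) = (if j < 6 then sg (h ((j + 3) % 6)) else h j)
          rw [if_pos hj, if_pos hj, Function.update_of_ne (by omega)]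
      · rw [Function.update_of_ne (by omega)]
        show (if j < 6 then sg (Function.update h k b ((j + 3) % 6)) else
            Function.update h k b j) = (if j < 6 then sg (h ((j + 3) % 6)) else h j)
        rw [if_neg hj, if_neg hj, Function.update_of_ne (by omega)]
    have h3 : LegB (Function.update (Trie.sp h) ((k + 3) % 6) (sg b)) := by
      rw [← e]; exact h2.sp
    rw [e]
    refine StepB.single (Nat.mod_lt _ (by norm_num)) h1.sp h3 ?_
    show al (if (k + 3) % 6 < 6 then sg (h (((k + 3) % 6 + 3) % 6)) else h ((k + 3) % 6)) (sg b) = true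
    rw [if_pos (Nat.mod_lt _ (by norm_num)), show ((k + 3) % 6 + 3) % 6 = k by omega,
      al_sg _ (h1.lt k hk) _ hb]
    exact ha
  | @multi _ m hm h1 h2 hf =>
    obtain ⟨v0, v1, v2, v3, v4, v5, rfl, f0, f1, f2, f3, f4, f5⟩ := fit_six hf
    obtain ⟨m', hm', hsub⟩ := List.any_eq_true.1 (List.all_eq_true.1 multi_sw _ hm)
    have f' : FitW ([v0, v1, v2, v3, v4, v5].rotate 3) [h 3, h 4, h 5, h 0, h 1, h 2]
        [g 3, g 4, g 5, g 0, g 1, g 2] := ⟨f3, f4, f5, f0, f1, f2, trivial⟩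
    have := subL_spec hsub f'
    exact StepB.multi hm' h1.sp h2.sp this

theorem ind_off {F : Fin 8 → Bool} {s : Fin 8} (hs : F s = false) (t : Fin 8) : ind F t s = 0 := by
  unfold ind
  by_cases h : s = t
  · subst h; rw [hs]; rfl
  · cases F t <;> simp [h]

theorem cJ_off {F : Fin 8 → Bool} {s : Fin 8} (hs : F s = false) (a b : ℕ) : cJ F a b s = 0 := by
  have e1 : ∀ a b, cz F a b s = 0 := fun a b => by
    unfold cz
    cases ((Nat.beq a 2 && Nat.beq b 0) || (Nat.beq a 0 && Nat.beq b 2)) <;>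
    cases ((Nat.beq a 3 && Nat.beq b 1) || (Nat.beq a 1 && Nat.beq b 3)) <;>
    cases ((Nat.beq a 2 && Nat.beq b 1) || (Nat.beq a 1 && Nat.beq b 2)) <;>
    cases ((Nat.beq a 3 && Nat.beq b 0) || (Nat.beq a 0 && Nat.beq b 3)) <;>
    simp only [cond_true, cond_false, ind_off hs, Pi.zero_apply]
  have e2 : ∀ a b, cv F a b s = 0 := fun a b => by
    unfold cv
    cases ((Nat.beq a 2 && Nat.beq b 0) || (Nat.beq a 0 && Nat.beq b 2)) <;>
    cases ((Nat.beq a 3 && Nat.beq b 1) || (Nat.beq a 1 && Nat.beq b 3)) <;>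
    cases ((Nat.beq a 2 && Nat.beq b 1) || (Nat.beq a 1 && Nat.beq b 2)) <;>
    cases ((Nat.beq a 3 && Nat.beq b 0) || (Nat.beq a 0 && Nat.beq b 3)) <;>
    simp only [cond_true, cond_false, ind_off hs, Pi.zero_apply]
  unfold cJ
  rw [Pi.add_apply, e1, e2]

theorem cJ_sg0 : ∀ a < 10, ∀ b < 10, ∀ s : Fin 8,
    cJ (fun _ => true) (sg a) (sg b) s = cJ (fun _ => true) a b (s + 4) := by decide +kernel

theorem cJ_sg (F : Fin 8 → Bool) {a b : ℕ} (ha : a < 10) (hb : b < 10) :
    cJ (fun t => F (t + 4)) (sg a) (sg b) = fun s => cJ F a b (s + 4) := by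
  funext s
  cases h : F (s + 4)
  · rw [cJ_off h, cJ_off (F := fun t => F (t + 4)) h]
  · rw [cJ_eq h, cJ_eq (F := fun t => F (t + 4)) h, cJ_sg0 a ha b hb s]

theorem cW_sp (F : Fin 8 → Bool) {h g : ℕ → ℕ} (H : LegB h) (G : LegB g) :
    cW (fun t => F (t + 4)) (sp h) (sp g) = fun s => cW F h g (s + 4) := by
  have l : ∀ k < 6, cJ (fun t => F (t + 4)) (sg (h k)) (sg (g k)) = fun s => cJ F (h k) (g k) (s + 4) :=
    fun k hk => cJ_sg F (H.lt k hk) (G.lt k hk)
  show cJ _ (sg (h 3)) (sg (g 3)) + (cJ _ (sg (h 4)) (sg (g 4)) + (cJ _ (sg (h 5)) (sg (g 5)) +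
    (cJ _ (sg (h 0)) (sg (g 0)) + (cJ _ (sg (h 1)) (sg (g 1)) + cJ _ (sg (h 2)) (sg (g 2)))))) = _
  rw [l 0 (by norm_num), l 1 (by norm_num), l 2 (by norm_num), l 3 (by norm_num),
    l 4 (by norm_num), l 5 (by norm_num)]
  funext s
  unfold cW
  simp only [Pi.add_apply]
  omega

/-- **A path with the circles exchanged.** -/
theorem PathM.sp {F : Fin 8 → Bool} {h g : ℕ → ℕ} {n : Fin 8 → ℕ} (hp : PathM F h n g) :
    PathM (fun t => F (t + 4)) (Trie.sp h) (fun t => n (t + 4)) (Trie.sp g) := by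
  induction hp with
  | refl => exact PathM.refl _
  | @tail g g' n _ hs ih =>
    have := ih.tail hs.sp
    rw [cW_sp F hs.leg.1 hs.leg.2] at this
    exact this

/-! ### closed paths -/

/-- the word `x` with `A` at the special point of the first circle and `X` at the one of the second
circle, `y` the same word with `e` and `Y` -/
structure Lk (X Y : ℕ) (x y : ℕ → ℕ) : Prop where
  lx : LegB x
  ly : LegB y
  z0 : zl (x 0) = 2
  z1 : zl (x 1) = 1
  z5 : zl (x 5) = 1
  v2 : vl (x 2) = 1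
  v4 : vl (x 4) = 1
  v3 : vl (x 3) = X
  y0 : y 0 = jn 0 (vl (x 0))
  y3 : y 3 = jn (zl (x 3)) Y
  y1 : y 1 = x 1
  y2 : y 2 = x 2
  y4 : y 4 = x 4
  y5 : y 5 = x 5

/-- next position -/
def rt (x : ℕ → ℕ) : ℕ → ℕ := fun k => if k < 6 then x ((k + 1) % 6) else x k

/-- reflection -/
def rf (x : ℕ → ℕ) : ℕ → ℕ := fun k => if k < 6 then x ((6 - k) % 6) else x k

/-- closed path, `A` before and `e` after the special time -/
def Cyc (X Y : ℕ) (F : Fin 8 → Bool) (n : Fin 8 → ℕ) : Prop :=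
  ∃ x y, Lk X Y x y ∧ PathM F y n (rt x)

theorem rv_rt (y : ℕ → ℕ) : rv (rt y) = rf y := by
  funext k
  by_cases hk : k < 6
  · show (if k < 6 then (if 5 - k < 6 then y ((5 - k + 1) % 6) else y (5 - k)) else rt y k) =
      if k < 6 then y ((6 - k) % 6) else y k
    rw [if_pos hk, if_pos hk, if_pos (by omega)]
    congr 1; omega
  · show (if k < 6 then rt y (5 - k) else (if k < 6 then y ((k + 1) % 6) else y k)) =
      if k < 6 then y ((6 - k) % 6) else y k
    rw [if_neg hk, if_neg hk, if_neg hk]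

theorem rt_rf (x : ℕ → ℕ) : rt (rf x) = rv x := by
  funext k
  by_cases hk : k < 6
  · show (if k < 6 then (if (k + 1) % 6 < 6 then x ((6 - (k + 1) % 6) % 6) else x ((k + 1) % 6))
      else rf x k) = if k < 6 then x (5 - k) else x k
    rw [if_pos hk, if_pos hk, if_pos (Nat.mod_lt _ (by norm_num))]
    congr 1; omega
  · show (if k < 6 then rf x ((k + 1) % 6) else (if k < 6 then x ((6 - k) % 6) else x k)) =
      if k < 6 then x (5 - k) else x k
    rw [if_neg hk, if_neg hk, if_neg hk]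

theorem LegB.rf {h : ℕ → ℕ} (H : LegB h) : LegB (Trie.rf h) := by
  refine ⟨fun k hk => ?_, ?_, ?_, ?_, ?_, ?_, ?_, ?_, ?_, ?_⟩
  · show (if k < 6 then h ((6 - k) % 6) else h k) < 10
    rw [if_pos hk]; exact H.lt _ (Nat.mod_lt _ (by norm_num))
  · show nb (h 0) (h 5) = true; rw [nb_symmM]; exact H.n5
  · show nb (h 5) (h 4) = true; rw [nb_symmM]; exact H.n4
  · show nb (h 4) (h 3) = true; rw [nb_symmM]; exact H.n3
  · show nb (h 3) (h 2) = true; rw [nb_symmM]; exact H.n2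
  · show nb (h 2) (h 1) = true; rw [nb_symmM]; exact H.n1
  · show nb (h 1) (h 0) = true; rw [nb_symmM]; exact H.n0
  · show op (h 0) (h 3) = true; exact H.o0
  · show op (h 5) (h 2) = true; rw [op_symm]; exact H.o2
  · show op (h 4) (h 1) = true; rw [op_symm]; exact H.o1

/-- **Mirror image**: `e` before and `A` after the special time. -/
theorem Cyc.of_mirror {X Y : ℕ} {F : Fin 8 → Bool} {n : Fin 8 → ℕ} {x y : ℕ → ℕ} (H : Lk X Y x y)
    (hp : PathM F x n (rt y)) : Cyc X Y F n := by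
  refine ⟨rf x, rf y, ⟨H.lx.rf, H.ly.rf, H.z0, H.z5, H.z1, H.v4, H.v2, H.v3, H.y0, H.y3, H.y5,
    H.y4, H.y2, H.y1⟩, ?_⟩
  have := hp.rv
  rwa [rv_rt, ← rt_rf] at this

theorem sp_rt (x : ℕ → ℕ) : sp (rt x) = rt (sp x) := by
  funext k
  by_cases hk : k < 6
  · show (if k < 6 then sg (if (k + 3) % 6 < 6 then x (((k + 3) % 6 + 1) % 6) else x ((k + 3) % 6))
      else rt x k) = if k < 6 then (if (k + 1) % 6 < 6 then sg (x (((k + 1) % 6 + 3) % 6)) else
        x ((k + 1) % 6)) else sp x k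
    rw [if_pos hk, if_pos hk, if_pos (Nat.mod_lt _ (by norm_num)),
      if_pos (Nat.mod_lt _ (by norm_num))]
    congr 2; omega
  · show (if k < 6 then sg (rt x ((k + 3) % 6)) else (if k < 6 then x ((k + 1) % 6) else x k)) =
      if k < 6 then sp x ((k + 1) % 6) else (if k < 6 then sg (x ((k + 3) % 6)) else x k)
    rw [if_neg hk, if_neg hk, if_neg hk, if_neg hk]

theorem zl_jn : ∀ z < 4, ∀ v < 4, jn z v < 10 → zl (jn z v) = z ∧ vl (jn z v) = v := by decide

/-- **Exchange of the circles.** -/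
theorem Cyc.swap {X Y : ℕ} (hXY : (X = 0 ∧ Y = 2) ∨ (X = 2 ∧ Y = 0)) {F : Fin 8 → Bool}
    {n : Fin 8 → ℕ} (C : Cyc X Y F n) : Cyc X Y (fun t => F (t + 4)) fun t => n (t + 4) := by
  obtain ⟨x, y, H, hp⟩ := C
  have hp' := hp.sp
  rw [sp_rt] at hp'
  have lx := H.lx.lt
  have ly := H.ly.lt
  have vlt : ∀ a < 10, vl a < 4 := by decide
  have zlt : ∀ a < 10, zl a < 4 := by decide
  have hy0 := zl_jn 0 (by norm_num) (vl (x 0)) (vlt _ (lx 0 (by norm_num)))
    (by rw [← H.y0]; exact ly 0 (by norm_num))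
  rw [← H.y0] at hy0
  have hy3 := zl_jn (zl (x 3)) (zlt _ (lx 3 (by norm_num))) Y (by omega)
    (by rw [← H.y3]; exact ly 3 (by norm_num))
  rw [← H.y3] at hy3
  rcases hXY with ⟨rfl, rfl⟩ | ⟨rfl, rfl⟩
  · refine Cyc.of_mirror (x := sp y) (y := sp x) ⟨H.ly.sp, H.lx.sp, ?_, ?_, ?_, ?_, ?_, ?_, ?_, ?_,
      ?_, ?_, ?_, ?_⟩ hp'
    · show zl (sg (y 3)) = 2; rw [zl_sg _ (ly 3 (by norm_num))]; exact hy3.2
    · show zl (sg (y 4)) = 1; rw [zl_sg _ (ly 4 (by norm_num)), H.y4]; exact H.v4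
    · show zl (sg (y 2)) = 1; rw [zl_sg _ (ly 2 (by norm_num)), H.y2]; exact H.v2
    · show vl (sg (y 5)) = 1; rw [vl_sg _ (ly 5 (by norm_num)), H.y5]; exact H.z5
    · show vl (sg (y 1)) = 1; rw [vl_sg _ (ly 1 (by norm_num)), H.y1]; exact H.z1
    · show vl (sg (y 0)) = 0; rw [vl_sg _ (ly 0 (by norm_num))]; exact hy0.1
    · show sg (x 3) = jn 0 (vl (sg (y 3)))
      rw [vl_sg _ (ly 3 (by norm_num)), hy3.1, ← H.v3, ← vl_sg (x 3) (lx 3 (by norm_num)),
        ← zl_sg (x 3) (lx 3 (by norm_num)), jn_zv _ (sg_lt _ (lx 3 (by norm_num)))]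
    · show sg (x 0) = jn (zl (sg (y 0))) 2
      rw [zl_sg _ (ly 0 (by norm_num)), hy0.2, ← H.z0, ← vl_sg (x 0) (lx 0 (by norm_num)),
        ← zl_sg (x 0) (lx 0 (by norm_num)), jn_zv _ (sg_lt _ (lx 0 (by norm_num)))]
    · show sg (x 4) = sg (y 4); rw [H.y4]
    · show sg (x 5) = sg (y 5); rw [H.y5]
    · show sg (x 1) = sg (y 1); rw [H.y1]
    · show sg (x 2) = sg (y 2); rw [H.y2]
  · refine ⟨sp x, sp y, ⟨H.lx.sp, H.ly.sp, ?_, ?_, ?_, ?_, ?_, ?_, ?_, ?_, ?_, ?_, ?_, ?_⟩, hp'⟩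
    · show zl (sg (x 3)) = 2; rw [zl_sg _ (lx 3 (by norm_num))]; exact H.v3
    · show zl (sg (x 4)) = 1; rw [zl_sg _ (lx 4 (by norm_num))]; exact H.v4
    · show zl (sg (x 2)) = 1; rw [zl_sg _ (lx 2 (by norm_num))]; exact H.v2
    · show vl (sg (x 5)) = 1; rw [vl_sg _ (lx 5 (by norm_num))]; exact H.z5
    · show vl (sg (x 1)) = 1; rw [vl_sg _ (lx 1 (by norm_num))]; exact H.z1
    · show vl (sg (x 0)) = 2; rw [vl_sg _ (lx 0 (by norm_num))]; exact H.z0
    · show sg (y 3) = jn 0 (vl (sg (x 3)))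
      have h5 := jn_zv _ (sg_lt _ (ly 3 (by norm_num)))
      rw [zl_sg _ (ly 3 (by norm_num)), vl_sg _ (ly 3 (by norm_num)), hy3.1, hy3.2] at h5
      rw [vl_sg _ (lx 3 (by norm_num))]
      exact h5.symm
    · show sg (y 0) = jn (zl (sg (x 0))) 0
      have h5 := jn_zv _ (sg_lt _ (ly 0 (by norm_num)))
      rw [zl_sg _ (ly 0 (by norm_num)), vl_sg _ (ly 0 (by norm_num)), hy0.1, hy0.2] at h5
      rw [zl_sg _ (lx 0 (by norm_num))]
      exact h5.symm
    · show sg (y 4) = sg (x 4); rw [H.y4]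
    · show sg (y 5) = sg (x 5); rw [H.y5]
    · show sg (y 1) = sg (x 1); rw [H.y1]
    · show sg (y 2) = sg (x 2); rw [H.y2]

/-- **An inequality of the table.** -/
theorem Cyc.ineq {w : List ℕ} {nf m X Y : ℕ} {T : Tr} (hc : chk w nf m X Y T = true)
    {F : Fin 8 → Bool} (hs : SupM w F) {n : Fin 8 → ℕ} (C : Cyc X Y F n) : m ≤ dotM w n := by
  obtain ⟨x, y, H, hp⟩ := C
  exact beta_table hc H.lx H.ly H.z0 H.z1 H.z5 H.v2 H.v4 H.v3 H.y0 H.y3 H.y1 H.y2 H.y4 H.y5
    (fun k hk => by show (if k < 6 then x ((k + 1) % 6) else x k) = _; rw [if_pos hk]) (hp.toB hs)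

/-- **The parities of a closed path.** -/
theorem Cyc.parity {X Y : ℕ} (hXY : (X = 0 ∧ Y = 2) ∨ (X = 2 ∧ Y = 0)) {F : Fin 8 → Bool}
    {n : Fin 8 → ℕ} (C : Cyc X Y F n) :
    (F 0 = true → F 2 = true → (n 0 + n 2) % 2 = 1) ∧
    (F 1 = true → F 3 = true → (n 1 + n 3) % 2 = 0) ∧
    (F 4 = true → F 6 = true → (n 4 + n 6) % 2 = 1) ∧
    (F 5 = true → F 7 = true → (n 5 + n 7) % 2 = 0) := by
  obtain ⟨x, y, H, hp⟩ := C
  have lx := H.lx.lt
  have ly := H.ly.lt
  have vlt : ∀ a < 10, vl a < 4 := by decide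
  have zlt : ∀ a < 10, zl a < 4 := by decide
  have hy0 := zl_jn 0 (by norm_num) (vl (x 0)) (vlt _ (lx 0 (by norm_num)))
    (by rw [← H.y0]; exact ly 0 (by norm_num))
  rw [← H.y0] at hy0
  have hy3 := zl_jn (zl (x 3)) (zlt _ (lx 3 (by norm_num))) Y (by omega)
    (by rw [← H.y3]; exact ly 3 (by norm_num))
  rw [← H.y3] at hy3
  obtain ⟨p1, p2, p3, p4⟩ := hp.parity
  have e : ∀ L : ℕ → ℕ, cntL L (rt x) = L (x 1) + (L (x 2) + (L (x 3) + (L (x 4) + (L (x 5) +
    L (x 0))))) := fun L => rfl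
  simp only [e] at p1 p2 p3 p4
  simp only [cntL, isz, isv] at p1 p2 p3 p4
  simp only [H.y1, H.y2, H.y4, H.y5, hy0.1, hy0.2, hy3.1, hy3.2, H.z0, H.v3] at p1 p2 p3 p4
  have b20 : Nat.beq 0 2 = false := rfl
  have b22 : Nat.beq 2 2 = true := rfl
  have b03 : Nat.beq 0 3 = false := rfl
  have b23 : Nat.beq 2 3 = false := rfl
  refine ⟨fun h1 h2 => ?_, fun h1 h2 => ?_, fun h1 h2 => ?_, fun h1 h2 => ?_⟩
  · have := p1 h1 h2; simp only [b20, b22, b03, b23, cond_true, cond_false] at this; omega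
  · have := p2 h1 h2; simp only [b20, b22, b03, b23, cond_true, cond_false] at this; omega
  · have := p3 h1 h2
    rcases hXY with ⟨rfl, rfl⟩ | ⟨rfl, rfl⟩ <;>
      simp only [b20, b22, b03, b23, cond_true, cond_false] at this <;> omega
  · have := p4 h1 h2
    rcases hXY with ⟨rfl, rfl⟩ | ⟨rfl, rfl⟩ <;>
      simp only [b20, b22, b03, b23, cond_true, cond_false] at this <;> omega

end Vale.Agent.P032.Words.Trie
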