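import Vale.Agent.P032.Words.H281.BetaN

/-!
# The classes of counts of a BETA pair

`N t` is the number of clean ends of the type `t` (0, 1 or 2), or `3` if there is no bound.
-/

namespace Vale.Agent.P032.Words.Trie

/-- positive weight at an unbounded type -/
def pos (w a : ℕ) : Bool := Nat.ble 1 w && Nat.beq a 3

/-- an inequality holds, or does not say anything -/
def okI (w0 w1 w2 w3 w4 w5 w6 w7 m a0 a1 a2 a3 a4 a5 a6 a7 : ℕ) : Bool :=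
  pos w0 a0 || (pos w1 a1 || (pos w2 a2 || (pos w3 a3 || (pos w4 a4 || (pos w5 a5 || (pos w6 a6 ||
    (pos w7 a7 || Nat.ble m (w0 * a0 + (w1 * a1 + (w2 * a2 + (w3 * a3 + (w4 * a4 + (w5 * a5 +
      (w6 * a6 + w7 * a7))))))))))))))

/-- the seven inequalities, near -/
def nearI (a0 a1 a2 a3 a4 a5 a6 a7 : ℕ) : Bool :=
  okI 0 0 1 0 0 1 1 0 3 a0 a1 a2 a3 a4 a5 a6 a7 && (okI 3 1 0 1 0 2 0 0 6 a0 a1 a2 a3 a4 a5 a6 a7 &&
  (okI 2 0 2 0 0 0 1 3 11 a0 a1 a2 a3 a4 a5 a6 a7 && (okI 3 0 0 3 2 0 0 0 9 a0 a1 a2 a3 a4 a5 a6 a7 &&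
  (okI 0 1 0 0 0 0 2 1 6 a0 a1 a2 a3 a4 a5 a6 a7 && (okI 0 0 0 0 0 1 1 0 2 a0 a1 a2 a3 a4 a5 a6 a7 &&
  okI 0 1 0 0 1 0 0 0 1 a0 a1 a2 a3 a4 a5 a6 a7)))))

/-- the seven inequalities, far -/
def farI (a0 a1 a2 a3 a4 a5 a6 a7 : ℕ) : Bool :=
  okI 3 1 0 1 0 2 0 0 6 a0 a1 a2 a3 a4 a5 a6 a7 && (okI 2 0 2 0 0 0 1 3 11 a0 a1 a2 a3 a4 a5 a6 a7 &&
  (okI 1 2 0 0 1 0 1 0 7 a0 a1 a2 a3 a4 a5 a6 a7 && (okI 1 0 0 0 0 0 0 1 2 a0 a1 a2 a3 a4 a5 a6 a7 &&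
  (okI 0 0 0 1 0 0 2 1 6 a0 a1 a2 a3 a4 a5 a6 a7 && (okI 0 0 0 0 0 1 1 0 2 a0 a1 a2 a3 a4 a5 a6 a7 &&
  okI 0 1 0 0 1 0 0 0 1 a0 a1 a2 a3 a4 a5 a6 a7)))))

/-- two palettes of one type occur only if each occurs at most twice -/
def c1 (a b : ℕ) : Bool := Nat.beq a 0 || (Nat.beq b 0 || (Nat.ble a 2 && Nat.ble b 2))

/-- parity `r` of the sum, if both are bounded -/
def pr (r a b : ℕ) : Bool := Nat.beq a 3 || (Nat.beq b 3 || Nat.beq (Nat.mod (a + b) 2) r)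

/-- conditions on one circle -/
def preC (a b c d : ℕ) : Bool := c1 a b && (c1 c d && (pr 1 a c && (pr 0 b d && Nat.ble 1 (b + d))))

/-- the conclusion -/
def goodC (a b c d : ℕ) : Bool :=
  (Nat.beq a 0 || (Nat.beq b 0 || (Nat.ble 2 b && (Nat.ble 2 a || (Nat.ble 2 c && Nat.ble 2 d))))) &&
  ((Nat.ble 2 a && Nat.ble 2 b) || (Nat.ble 2 c && Nat.ble 2 d))

/-- the finite check -/
def finC (I : ℕ → ℕ → ℕ → ℕ → ℕ → ℕ → ℕ → ℕ → Bool) : Bool :=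
  [0, 1, 2, 3].all fun a0 => [0, 1, 2, 3].all fun a1 => [0, 1, 2, 3].all fun a2 =>
  [0, 1, 2, 3].all fun a3 => !(preC a0 a1 a2 a3) || (goodC a0 a1 a2 a3 ||
  [0, 1, 2, 3].all fun a4 => [0, 1, 2, 3].all fun a5 => [0, 1, 2, 3].all fun a6 =>
  [0, 1, 2, 3].all fun a7 => !(preC a4 a5 a6 a7) ||
    (!(I a0 a1 a2 a3 a4 a5 a6 a7) || !(I a4 a5 a6 a7 a0 a1 a2 a3)))

theorem fin_near : finC nearI = true := by decide +kernel

theorem fin_far : finC farI = true := by decide +kernel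

theorem finC_spec {I : ℕ → ℕ → ℕ → ℕ → ℕ → ℕ → ℕ → ℕ → Bool} (h : finC I = true)
    {a0 a1 a2 a3 a4 a5 a6 a7 : ℕ} (h0 : a0 ≤ 3) (h1 : a1 ≤ 3) (h2 : a2 ≤ 3) (h3 : a3 ≤ 3)
    (h4 : a4 ≤ 3) (h5 : a5 ≤ 3) (h6 : a6 ≤ 3) (h7 : a7 ≤ 3) (hz : preC a0 a1 a2 a3 = true)
    (hv : preC a4 a5 a6 a7 = true) (hI : I a0 a1 a2 a3 a4 a5 a6 a7 = true)
    (hI' : I a4 a5 a6 a7 a0 a1 a2 a3 = true) : goodC a0 a1 a2 a3 = true := by
  have mem : ∀ {a : ℕ}, a ≤ 3 → a ∈ ([0, 1, 2, 3] : List ℕ) := by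
    intro a ha
    have : a = 0 ∨ a = 1 ∨ a = 2 ∨ a = 3 := by omega
    rcases this with rfl | rfl | rfl | rfl <;> simp
  unfold finC at h
  have k := List.all_eq_true.1 (List.all_eq_true.1 (List.all_eq_true.1 (List.all_eq_true.1 h _
    (mem h0)) _ (mem h1)) _ (mem h2)) _ (mem h3)
  rw [hz, Bool.not_true, Bool.false_or, Bool.or_eq_true] at k
  rcases k with k | k
  · exact k
  · have k' := List.all_eq_true.1 (List.all_eq_true.1 (List.all_eq_true.1 (List.all_eq_true.1 k _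
      (mem h4)) _ (mem h5)) _ (mem h6)) _ (mem h7)
    rw [hv, hI, hI'] at k'
    exact absurd k' (by simp)

/-- the count of a type, `3` if it is not bounded -/
def NN (F : Fin 8 → Bool) (n : Fin 8 → ℕ) (t : Fin 8) : ℕ := bif F t then n t else 3

theorem okI_of {w0 w1 w2 w3 w4 w5 w6 w7 m : ℕ} {F : Fin 8 → Bool} {n : Fin 8 → ℕ}
    (h : SupM [w0, w1, w2, w3, w4, w5, w6, w7] F → m ≤ dotM [w0, w1, w2, w3, w4, w5, w6, w7] n) :
    okI w0 w1 w2 w3 w4 w5 w6 w7 m (NN F n 0) (NN F n 1) (NN F n 2) (NN F n 3) (NN F n 4) (NN F n 5)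
      (NN F n 6) (NN F n 7) = true := by
  by_cases hs : SupM [w0, w1, w2, w3, w4, w5, w6, w7] F
  · have h1 := h hs
    have key : ∀ t : Fin 8, ([w0, w1, w2, w3, w4, w5, w6, w7] : List ℕ).getD t.val 0 * n t =
        ([w0, w1, w2, w3, w4, w5, w6, w7] : List ℕ).getD t.val 0 * NN F n t := by
      intro t
      unfold NN
      cases hF : F t
      · rw [hs t hF, Nat.zero_mul, Nat.zero_mul]
      · rfl
    have h2 : dotM [w0, w1, w2, w3, w4, w5, w6, w7] n = w0 * NN F n 0 + (w1 * NN F n 1 +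
        (w2 * NN F n 2 + (w3 * NN F n 3 + (w4 * NN F n 4 + (w5 * NN F n 5 + (w6 * NN F n 6 +
          w7 * NN F n 7)))))) := by
      unfold dotM
      rw [Finset.sum_congr rfl fun t _ => key t, Fin.sum_univ_eight]
      simp only [Fin.isValue, Fin.val_zero, Fin.val_one, Fin.val_two, List.getD_cons_zero,
        List.getD_cons_succ, show ((3 : Fin 8) : ℕ) = 3 from rfl, show ((4 : Fin 8) : ℕ) = 4 from rfl,
        show ((5 : Fin 8) : ℕ) = 5 from rfl, show ((6 : Fin 8) : ℕ) = 6 from rfl,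
        show ((7 : Fin 8) : ℕ) = 7 from rfl]
      ring
    rw [h2] at h1
    unfold okI
    rw [Nat.ble_eq_true_of_le h1]
    simp only [Bool.or_true]
  · unfold SupM at hs
    push Not at hs
    obtain ⟨t, hF, hw⟩ := hs
    have hN : NN F n t = 3 := by unfold NN; rw [hF]; rfl
    have hp : ∀ w, w ≠ 0 → pos w 3 = true := by
      intro w hw
      unfold pos
      rw [Nat.ble_eq_true_of_le (show 1 ≤ w by omega)]; rfl
    unfold okI
    fin_cases t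
    · have hw : w0 ≠ 0 := hw
      rw [show NN F n 0 = 3 from hN, hp _ hw]; rfl
    · have hw : w1 ≠ 0 := hw
      rw [show NN F n 1 = 3 from hN, hp _ hw]; simp only [Bool.or_true, Bool.true_or]
    · have hw : w2 ≠ 0 := hw
      rw [show NN F n 2 = 3 from hN, hp _ hw]; simp only [Bool.or_true, Bool.true_or]
    · have hw : w3 ≠ 0 := hw
      rw [show NN F n 3 = 3 from hN, hp _ hw]; simp only [Bool.or_true, Bool.true_or]
    · have hw : w4 ≠ 0 := hw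
      rw [show NN F n 4 = 3 from hN, hp _ hw]; simp only [Bool.or_true, Bool.true_or]
    · have hw : w5 ≠ 0 := hw
      rw [show NN F n 5 = 3 from hN, hp _ hw]; simp only [Bool.or_true, Bool.true_or]
    · have hw : w6 ≠ 0 := hw
      rw [show NN F n 6 = 3 from hN, hp _ hw]; simp only [Bool.or_true, Bool.true_or]
    · have hw : w7 ≠ 0 := hw
      rw [show NN F n 7 = 3 from hN, hp _ hw]; simp only [Bool.or_true, Bool.true_or]

theorem pr_of {F : Fin 8 → Bool} {n : Fin 8 → ℕ} {s t : Fin 8} {r : ℕ}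
    (h : F s = true → F t = true → (n s + n t) % 2 = r) : pr r (NN F n s) (NN F n t) = true := by
  unfold pr NN
  cases hs : F s
  · rfl
  cases ht : F t
  · simp
  · rw [cond_true, cond_true]
    have h1 : Nat.beq (Nat.mod (n s + n t) 2) r = true := by
      rw [Nat.beq_eq]; exact h hs ht
    rw [h1]; simp only [Bool.or_true]

theorem c1_of {a b : ℕ} (h : 1 ≤ a → 1 ≤ b → a ≤ 2 ∧ b ≤ 2) : c1 a b = true := by
  unfold c1
  rcases Nat.eq_zero_or_pos a with rfl | ha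
  · rfl
  rcases Nat.eq_zero_or_pos b with rfl | hb
  · simp
  obtain ⟨h1, h2⟩ := h ha hb
  rw [Nat.ble_eq_true_of_le h1, Nat.ble_eq_true_of_le h2]
  simp only [Bool.and_true, Bool.or_true]

theorem goodC_spec {a b c d : ℕ} (h : goodC a b c d = true) :
    (1 ≤ a → 1 ≤ b → 2 ≤ b ∧ (2 ≤ a ∨ (2 ≤ c ∧ 2 ≤ d))) ∧ ((2 ≤ a ∧ 2 ≤ b) ∨ (2 ≤ c ∧ 2 ≤ d)) := by
  unfold goodC at h
  simp only [Bool.and_eq_true, Bool.or_eq_true, Nat.beq_eq, Nat.ble_eq] at h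
  omega

end Vale.Agent.P032.Words.Trie
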