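import Vale.Agent.P032.Words.H281.BetaFin0
import Vale.Agent.P032.Words.H151.BetaN2
import Vale.Agent.P032.Words.H151.BetaN4
import Vale.Agent.P032.Words.H151.BetaN5
import Vale.Agent.P032.Words.H151.BetaN6
import Vale.Agent.P032.Words.H151.BetaN7
import Vale.Agent.P032.Words.H151.BetaN8
import Vale.Agent.P032.Words.H151.BetaN9
import Vale.Agent.P032.Words.H151.BetaF1
import Vale.Agent.P032.Words.H151.BetaF2
import Vale.Agent.P032.Words.H151.BetaF4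
import Vale.Agent.P032.Words.H151.BetaF5
import Vale.Agent.P032.Words.H151.BetaF7
import Vale.Agent.P032.Words.H151.BetaF8
import Vale.Agent.P032.Words.H151.BetaF9

/-!
# The classes of counts of a BETA pair: the fourteen tables inserted
-/

namespace Vale.Agent.P032.Words.Trie

theorem nearI_of {F : Fin 8 → Bool} {n : Fin 8 → ℕ} (C : Cyc 0 2 F n) :
    nearI (NN F n 0) (NN F n 1) (NN F n 2) (NN F n 3) (NN F n 4) (NN F n 5) (NN F n 6)
      (NN F n 7) = true := by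
  unfold nearI
  rw [okI_of fun h => C.ineq BetaN7.chk h, okI_of fun h => C.ineq BetaN5.chk h,
    okI_of fun h => C.ineq BetaN4.chk h, okI_of fun h => C.ineq BetaN2.chk h,
    okI_of fun h => C.ineq BetaN6.chk h, okI_of fun h => C.ineq BetaN8.chk h,
    okI_of fun h => C.ineq BetaN9.chk h]
  rfl

theorem farI_of {F : Fin 8 → Bool} {n : Fin 8 → ℕ} (C : Cyc 2 0 F n) :
    farI (NN F n 0) (NN F n 1) (NN F n 2) (NN F n 3) (NN F n 4) (NN F n 5) (NN F n 6)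
      (NN F n 7) = true := by
  unfold farI
  rw [okI_of fun h => C.ineq BetaF5.chk h, okI_of fun h => C.ineq BetaF2.chk h,
    okI_of fun h => C.ineq BetaF4.chk h, okI_of fun h => C.ineq BetaF1.chk h,
    okI_of fun h => C.ineq BetaF7.chk h, okI_of fun h => C.ineq BetaF8.chk h,
    okI_of fun h => C.ineq BetaF9.chk h]
  rfl

/-- **The classes of counts.** -/
theorem Cyc.classes {X Y : ℕ} (hXY : (X = 0 ∧ Y = 2) ∨ (X = 2 ∧ Y = 0)) {F : Fin 8 → Bool}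
    {n : Fin 8 → ℕ} (C : Cyc X Y F n) (h2 : ∀ t, F t = true → n t ≤ 2)
    (k0 : 1 ≤ NN F n 0 → 1 ≤ NN F n 1 → NN F n 0 ≤ 2 ∧ NN F n 1 ≤ 2)
    (k2 : 1 ≤ NN F n 2 → 1 ≤ NN F n 3 → NN F n 2 ≤ 2 ∧ NN F n 3 ≤ 2)
    (k4 : 1 ≤ NN F n 4 → 1 ≤ NN F n 5 → NN F n 4 ≤ 2 ∧ NN F n 5 ≤ 2)
    (k6 : 1 ≤ NN F n 6 → 1 ≤ NN F n 7 → NN F n 6 ≤ 2 ∧ NN F n 7 ≤ 2)
    (c13 : 1 ≤ NN F n 1 + NN F n 3) (c57 : 1 ≤ NN F n 5 + NN F n 7) :
    (1 ≤ NN F n 0 → 1 ≤ NN F n 1 → 2 ≤ NN F n 1 ∧ (2 ≤ NN F n 0 ∨ (2 ≤ NN F n 2 ∧ 2 ≤ NN F n 3))) ∧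
      ((2 ≤ NN F n 0 ∧ 2 ≤ NN F n 1) ∨ (2 ≤ NN F n 2 ∧ 2 ≤ NN F n 3)) := by
  obtain ⟨p1, p2, p3, p4⟩ := C.parity hXY
  have le3 : ∀ t, NN F n t ≤ 3 := by
    intro t
    unfold NN
    cases hF : F t
    · exact le_rfl
    · have := h2 t hF
      show n t ≤ 3
      omega
  have hz : preC (NN F n 0) (NN F n 1) (NN F n 2) (NN F n 3) = true := by
    unfold preC
    rw [c1_of k0, c1_of k2, pr_of p1, pr_of p2, Nat.ble_eq_true_of_le c13]; rfl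
  have hv : preC (NN F n 4) (NN F n 5) (NN F n 6) (NN F n 7) = true := by
    unfold preC
    rw [c1_of k4, c1_of k6, pr_of p3, pr_of p4, Nat.ble_eq_true_of_le c57]; rfl
  refine goodC_spec ?_
  have C' := C.swap hXY
  rcases hXY with ⟨rfl, rfl⟩ | ⟨rfl, rfl⟩
  · exact finC_spec fin_near (le3 0) (le3 1) (le3 2) (le3 3) (le3 4) (le3 5) (le3 6) (le3 7) hz hv
      (nearI_of C) (nearI_of C')
  · exact finC_spec fin_far (le3 0) (le3 1) (le3 2) (le3 3) (le3 4) (le3 5) (le3 6) (le3 7) hz hv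
      (farI_of C) (farI_of C')

end Vale.Agent.P032.Words.Trie
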